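import Vale.Agent.Lib.P069.Space

/-!
The asymptotic midpoint inequality.
-/

open scoped ENNReal NNReal Topology RealInnerProductSpace

namespace Vale.Agent.P069

/-- An element of `H` dominated by another one. -/
noncomputable def ofDom (g : List ℕ → ℝ) (f : H) (h : ∀ v, |g v| ≤ |f v|) : H :=
  ⟨g, Memℓp.mono' (g := f) (lp.memℓp f) (fun v => by simpa using h v)⟩

theorem H_hasSum (x : H) : HasSum (fun v => (x v) ^ 2) (‖x‖ ^ 2) := by
  have h := lp.hasSum_norm (p := 2) (by norm_num) x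
  simpa using h

theorem norm_ofDom_le (g : List ℕ → ℝ) (f : H) (h : ∀ v, |g v| ≤ |f v|) :
    ‖ofDom g f h‖ ≤ ‖f‖ := by
  have h1 := H_hasSum (ofDom g f h)
  have h2 := H_hasSum f
  have h3 : ‖ofDom g f h‖ ^ 2 ≤ ‖f‖ ^ 2 := by
    apply hasSum_le _ h1 h2
    intro v
    exact sq_le_sq.2 (h v)
  exact (pow_le_pow_iff_left₀ (norm_nonneg _) (norm_nonneg _) two_ne_zero).1 h3

theorem inner_eq_zero_of_disj {f g : H} (h : ∀ v, f v = 0 ∨ g v = 0) : ⟪f, g⟫ = 0 := by
  rw [lp.inner_eq_tsum]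
  have : ∀ v, ⟪f v, g v⟫ = 0 := by
    intro v
    rcases h v with h | h <;> simp [h]
  rw [tsum_congr this, tsum_zero]

theorem norm_comb_le {f g : H} (h : ∀ v, f v = 0 ∨ g v = 0) (hf : ‖f‖ ≤ 1) (hg : ‖g‖ ≤ 1)
    {α β : ℝ} (hαβ : α ^ 2 + β ^ 2 ≤ 1) : ‖α • f + β • g‖ ≤ 1 := by
  have h1 : ‖α • f + β • g‖ ^ 2 = α ^ 2 * ‖f‖ ^ 2 + β ^ 2 * ‖g‖ ^ 2 := by
    rw [norm_add_sq_real, real_inner_smul_left, real_inner_smul_right,
      inner_eq_zero_of_disj h, norm_smul, norm_smul, mul_pow, mul_pow]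
    simp
  have h2 : ‖α • f + β • g‖ ^ 2 ≤ 1 := by
    rw [h1]
    have h3 : ‖f‖ ^ 2 ≤ 1 := pow_le_one₀ (norm_nonneg _) hf
    have h4 : ‖g‖ ^ 2 ≤ 1 := pow_le_one₀ (norm_nonneg _) hg
    nlinarith [sq_nonneg α, sq_nonneg β]
  nlinarith [norm_nonneg (α • f + β • g)]

/-- Discrete derivative along the tree. -/
def diff (P : List ℕ → ℝ) : List ℕ → ℝ
  | [] => P []
  | (k :: A) => P (k :: A) - P A

theorem psum_diff (P : List ℕ → ℝ) (A : List ℕ) : psum (diff P) A = P A := by
  induction A with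
  | nil => rfl
  | cons k A ih => rw [psum_cons, ih]; simp [diff]

theorem psum_eq_zero {F0 : Set (List ℕ)} (hF0 : ∀ k A, k :: A ∈ F0 → A ∈ F0)
    {h : List ℕ → ℝ} (hh : ∀ v ∈ F0, h v = 0) {A : List ℕ} (hA : A ∈ F0) : psum h A = 0 := by
  induction A with
  | nil => exact hh _ hA
  | cons k A ih => rw [psum_cons, hh _ hA, ih (hF0 k A hA), add_zero]

/-- First half of the sign splitting (on the level of path sums). -/
noncomputable def P1 (f h : List ℕ → ℝ) (A : List ℕ) : ℝ :=
  if 0 ≤ psum f A then min (psum h A) 0 else max (psum h A) 0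

/-- Second half of the sign splitting (on the level of path sums). -/
noncomputable def P2 (f h : List ℕ → ℝ) (A : List ℕ) : ℝ :=
  if 0 ≤ psum f A then max (psum h A) 0 else min (psum h A) 0

theorem P1_add_P2 (f h : List ℕ → ℝ) (A : List ℕ) : P1 f h A + P2 f h A = psum h A := by
  unfold P1 P2
  split_ifs
  · have := min_add_max (psum h A) 0; linarith
  · have := min_add_max (psum h A) 0; linarith

theorem abs_min_sub_min_le (a b : ℝ) : |min a 0 - min b 0| ≤ |a - b| := by
  have := abs_min_sub_min_le_max a 0 b 0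
  simpa using this

theorem abs_max_sub_max_le (a b : ℝ) : |max a 0 - max b 0| ≤ |a - b| := by
  have := abs_max_sub_max_le_max a 0 b 0
  simpa using this

theorem diff_P1_le {F0 : Set (List ℕ)} (hF0 : ∀ k A, k :: A ∈ F0 → A ∈ F0)
    {f h : List ℕ → ℝ} (hf : ∀ v, v ∉ F0 → f v = 0) (hh : ∀ v ∈ F0, h v = 0) (v : List ℕ) :
    |diff (P1 f h) v| ≤ |h v| := by
  cases v with
  | nil =>
    have h1 := abs_min_sub_min_le (h []) 0
    have h2 := abs_max_sub_max_le (h []) 0
    simp only [min_self, max_self, sub_zero] at h1 h2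
    simp only [diff, P1]
    split_ifs
    · exact h1
    · exact h2
  | cons k A =>
    simp only [diff]
    by_cases hv : k :: A ∈ F0
    · have h1 := psum_eq_zero hF0 hh hv
      have h2 := psum_eq_zero hF0 hh (hF0 _ _ hv)
      simp [P1, h1, h2]
    · have h1 : psum f (k :: A) = psum f A := by rw [psum_cons, hf _ hv, zero_add]
      have h2 : psum h (k :: A) - psum h A = h (k :: A) := by rw [psum_cons]; ring
      simp only [P1, h1]
      rw [← h2]
      split_ifs
      · exact abs_min_sub_min_le _ _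
      · exact abs_max_sub_max_le _ _

theorem diff_P2_le {F0 : Set (List ℕ)} (hF0 : ∀ k A, k :: A ∈ F0 → A ∈ F0)
    {f h : List ℕ → ℝ} (hf : ∀ v, v ∉ F0 → f v = 0) (hh : ∀ v ∈ F0, h v = 0) (v : List ℕ) :
    |diff (P2 f h) v| ≤ |h v| := by
  cases v with
  | nil =>
    have h1 := abs_min_sub_min_le (h []) 0
    have h2 := abs_max_sub_max_le (h []) 0
    simp only [min_self, max_self, sub_zero] at h1 h2
    simp only [diff, P2]
    split_ifs
    · exact h2
    · exact h1
  | cons k A =>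
    simp only [diff]
    by_cases hv : k :: A ∈ F0
    · have h1 := psum_eq_zero hF0 hh hv
      have h2 := psum_eq_zero hF0 hh (hF0 _ _ hv)
      simp [P2, h1, h2]
    · have h1 : psum f (k :: A) = psum f A := by rw [psum_cons, hf _ hv, zero_add]
      have h2 : psum h (k :: A) - psum h A = h (k :: A) := by rw [psum_cons]; ring
      simp only [P2, h1]
      rw [← h2]
      split_ifs
      · exact abs_max_sub_max_le _ _
      · exact abs_min_sub_min_le _ _

theorem diff_add_diff (f h : List ℕ → ℝ) (v : List ℕ) :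
    diff (P1 f h) v + diff (P2 f h) v = h v := by
  cases v with
  | nil =>
    have := P1_add_P2 f h []
    simpa [diff, psum_nil] using this
  | cons k A =>
    have h1 := P1_add_P2 f h (k :: A)
    have h2 := P1_add_P2 f h A
    rw [psum_cons] at h1
    simp only [diff]
    linarith

theorem opp_sign_bound {x y α β : ℝ} (hx : |x| ≤ 1) (hy : |y| ≤ 1) (hα : 0 ≤ α) (hβ : 0 ≤ β)
    (hα1 : α ≤ 1) (hβ1 : β ≤ 1) (h : (0 ≤ x ∧ y ≤ 0) ∨ (x ≤ 0 ∧ 0 ≤ y)) :
    |α * x + β * y| ≤ 1 := by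
  rw [abs_le] at hx hy ⊢
  rcases h with ⟨h1, h2⟩ | ⟨h1, h2⟩
  · constructor <;> nlinarith [mul_nonneg hα h1, mul_nonneg hβ (neg_nonneg.2 h2)]
  · constructor <;> nlinarith [mul_nonneg hα (neg_nonneg.2 h1), mul_nonneg hβ h2]

theorem le_one_of_sq {α β : ℝ} (hα : 0 ≤ α) (h : α ^ 2 + β ^ 2 ≤ 1) : α ≤ 1 := by
  nlinarith [sq_nonneg β]

theorem core {n : ℕ} {F0 : Set (List ℕ)} (hF0 : ∀ k A, k :: A ∈ F0 → A ∈ F0)
    {f h : H} (hf : f ∈ D n) (hh : h ∈ D n) (hfs : ∀ v, v ∉ F0 → f v = 0)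
    (hhs : ∀ v ∈ F0, h v = 0) :
    ∃ h1 h2 : H, h1 + h2 = h ∧ (∀ v ∈ F0, h1 v = 0) ∧ (∀ v ∈ F0, h2 v = 0) ∧
      ∀ α β : ℝ, 0 ≤ α → 0 ≤ β → α ^ 2 + β ^ 2 ≤ 1 →
        α • f + β • h1 ∈ D n ∧ α • f - β • h2 ∈ D n := by
  have d1 := diff_P1_le hF0 hfs hhs
  have d2 := diff_P2_le hF0 hfs hhs
  refine ⟨ofDom _ h d1, ofDom _ h d2, ?_, ?_, ?_, ?_⟩
  · ext v
    exact diff_add_diff f h v
  · intro v hv
    have := d1 v
    rw [hhs v hv, abs_zero] at this
    exact abs_nonpos_iff.1 this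
  · intro v hv
    have := d2 v
    rw [hhs v hv, abs_zero] at this
    exact abs_nonpos_iff.1 this
  · intro α β hα hβ hαβ
    have hα1 : α ≤ 1 := le_one_of_sq hα hαβ
    have hβ1 : β ≤ 1 := le_one_of_sq hβ (show β ^ 2 + α ^ 2 ≤ 1 by linarith)
    have disj1 : ∀ v, f v = 0 ∨ (ofDom _ h d1) v = 0 := by
      intro v
      by_cases hv : v ∈ F0
      · right
        have := d1 v
        rw [hhs v hv, abs_zero] at this
        exact abs_nonpos_iff.1 this
      · left; exact hfs v hv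
    have disj2 : ∀ v, f v = 0 ∨ (ofDom _ h d2) v = 0 := by
      intro v
      by_cases hv : v ∈ F0
      · right
        have := d2 v
        rw [hhs v hv, abs_zero] at this
        exact abs_nonpos_iff.1 this
      · left; exact hfs v hv
    refine ⟨⟨?_, ?_⟩, ⟨?_, ?_⟩⟩
    · exact norm_comb_le disj1 hf.1 ((norm_ofDom_le _ _ _).trans hh.1) hαβ
    · intro A hA
      rw [psum_H_comb]
      have e : psum (ofDom _ h d1) A = P1 f h A := psum_diff _ A
      rw [e]
      have hfA := hf.2 A hA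
      have hhA := hh.2 A hA
      unfold P1
      split_ifs with hs
      · apply opp_sign_bound hfA _ hα hβ hα1 hβ1
        · left; exact ⟨hs, min_le_right _ _⟩
        · rw [abs_le] at hhA ⊢
          constructor
          · exact le_min hhA.1 (by norm_num)
          · exact (min_le_right _ _).trans (by norm_num)
      · apply opp_sign_bound hfA _ hα hβ hα1 hβ1
        · right; exact ⟨(not_le.1 hs).le, le_max_right _ _⟩
        · rw [abs_le] at hhA ⊢
          constructor
          · exact le_trans (by norm_num) (le_max_right _ _)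
          · exact max_le hhA.2 (by norm_num)
    · have : α • f - β • ofDom _ h d2 = α • f + (-β) • ofDom _ h d2 := by
        rw [neg_smul, sub_eq_add_neg]
      rw [this]
      exact norm_comb_le disj2 hf.1 ((norm_ofDom_le _ _ _).trans hh.1) (by simpa using hαβ)
    · intro A hA
      have : α • f - β • ofDom _ h d2 = α • f + (-β) • ofDom _ h d2 := by
        rw [neg_smul, sub_eq_add_neg]
      rw [this, psum_H_comb]
      have e : psum (ofDom _ h d2) A = P2 f h A := psum_diff _ A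
      rw [e]
      have hfA := hf.2 A hA
      have hhA := hh.2 A hA
      have e2 : α * psum f A + -β * P2 f h A = α * psum f A + β * (-P2 f h A) := by ring
      rw [e2]
      unfold P2
      split_ifs with hs
      · apply opp_sign_bound hfA _ hα hβ hα1 hβ1
        · left; exact ⟨hs, by simp⟩
        · rw [abs_neg]
          rw [abs_le] at hhA ⊢
          constructor
          · exact le_trans (by norm_num) (le_max_right _ _)
          · exact max_le hhA.2 (by norm_num)
      · apply opp_sign_bound hfA _ hα hβ hα1 hβ1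
        · right; exact ⟨(not_le.1 hs).le, by simp⟩
        · rw [abs_neg]
          rw [abs_le] at hhA ⊢
          constructor
          · exact le_min hhA.1 (by norm_num)
          · exact (min_le_right _ _).trans (by norm_num)

/-- Restriction of `f` to a set of nodes. -/
noncomputable def restr (S : Set (List ℕ)) (f : H) : H :=
  ofDom (S.indicator f) f (fun v => by
    by_cases hv : v ∈ S
    · simp [Set.indicator_of_mem hv]
    · simp [Set.indicator_of_notMem hv])

theorem restr_apply_mem {S : Set (List ℕ)} (f : H) {v : List ℕ} (hv : v ∈ S) :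
    restr S f v = f v := Set.indicator_of_mem hv _

theorem restr_apply_notMem {S : Set (List ℕ)} (f : H) {v : List ℕ} (hv : v ∉ S) :
    restr S f v = 0 := Set.indicator_of_notMem hv _

theorem norm_restr_le (S : Set (List ℕ)) (f : H) : ‖restr S f‖ ≤ ‖f‖ := norm_ofDom_le _ _ _

theorem inner_restr {S : Set (List ℕ)} (f a : H) (ha : ∀ v, v ∉ S → a v = 0) :
    ⟪restr S f, a⟫ = ⟪f, a⟫ := by
  rw [lp.inner_eq_tsum, lp.inner_eq_tsum]
  apply tsum_congr
  intro v
  by_cases hv : v ∈ S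
  · rw [restr_apply_mem f hv]
  · rw [ha v hv]; simp

theorem psum_restr_mem {F0 : Set (List ℕ)} (hF0 : ∀ k A, k :: A ∈ F0 → A ∈ F0) (f : H)
    {A : List ℕ} (hA : A ∈ F0) : psum (restr F0 f) A = psum f A := by
  induction A with
  | nil => rw [psum_nil, psum_nil, restr_apply_mem f hA]
  | cons k A ih => rw [psum_cons, psum_cons, restr_apply_mem f hA, ih (hF0 k A hA)]

theorem psum_restr {F0 : Set (List ℕ)} (hF0 : ∀ k A, k :: A ∈ F0 → A ∈ F0) {n : ℕ} {f : H}
    (hf : f ∈ D n) : ∀ A : List ℕ, A.length ≤ n → |psum (restr F0 f) A| ≤ 1 := by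
  intro A
  induction A with
  | nil =>
    intro hA
    by_cases h : [] ∈ F0
    · rw [psum_restr_mem hF0 f h]; exact hf.2 _ hA
    · rw [psum_nil, restr_apply_notMem f h]; simp
  | cons k A ih =>
    intro hA
    by_cases h : k :: A ∈ F0
    · rw [psum_restr_mem hF0 f h]; exact hf.2 _ hA
    · rw [psum_cons, restr_apply_notMem f h, zero_add]
      apply ih
      simp only [List.length_cons] at hA
      omega

theorem restr_mem_D {F0 : Set (List ℕ)} (hF0 : ∀ k A, k :: A ∈ F0 → A ∈ F0) {n : ℕ} {f : H}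
    (hf : f ∈ D n) : restr F0 f ∈ D n :=
  ⟨(norm_restr_le _ _).trans hf.1, psum_restr hF0 hf⟩

theorem half_mem_D {F0 : Set (List ℕ)} (hF0 : ∀ k A, k :: A ∈ F0 → A ∈ F0) {n : ℕ} {h : H}
    (hh : h ∈ D n) : (1 / 2 : ℝ) • restr F0ᶜ h ∈ D n := by
  have e : restr F0ᶜ h = (1 : ℝ) • h + (-1 : ℝ) • restr F0 h := by
    ext v
    by_cases hv : v ∈ F0
    · have h1 : restr F0ᶜ h v = 0 := restr_apply_notMem h (by simpa using hv)
      have h2 : restr F0 h v = h v := restr_apply_mem h hv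
      simp [h1, h2]
    · have h1 : restr F0ᶜ h v = h v := restr_apply_mem h (by simpa using hv)
      have h2 : restr F0 h v = 0 := restr_apply_notMem h hv
      simp [h1, h2]
  constructor
  · rw [norm_smul]
    have h1 := (norm_restr_le F0ᶜ h).trans hh.1
    have h2 : ‖(1 / 2 : ℝ)‖ = 1 / 2 := by norm_num
    rw [h2]
    linarith
  · intro A hA
    have h1 : psum ((1 / 2 : ℝ) • restr F0ᶜ h : H) A
        = (1 / 2) * psum h A + (-1 / 2) * psum (restr F0 h) A := by
      have e2 : (1 / 2 : ℝ) • restr F0ᶜ h = (1 / 2 : ℝ) • h + (-1 / 2 : ℝ) • restr F0 h := by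
        rw [e]; module
      rw [e2, psum_H_comb]
    rw [h1]
    have h2 := abs_le.1 (hh.2 A hA)
    have h3 := abs_le.1 (psum_restr hF0 hh A hA)
    rw [abs_le]
    constructor <;> linarith

theorem mul_nrm_le {n : ℕ} {a : H} {c K : ℝ} (hc : 0 ≤ c) (h : ∀ f ∈ D n, c * ⟪f, a⟫ ≤ K) :
    c * nrm n a ≤ K := by
  rcases eq_or_lt_of_le hc with rfl | hc
  · have := h 0 (zero_mem_D n)
    simpa using this
  · rw [← le_div_iff₀' hc]
    apply nrm_le
    intro f hf
    rw [le_div_iff₀' hc]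
    exact h f hf

theorem two_point_lin {n : ℕ} {F0 : Set (List ℕ)} (hF0 : ∀ k A, k :: A ∈ F0 → A ∈ F0)
    {a b : H} (ha : ∀ v, v ∉ F0 → a v = 0) (hb : ∀ v ∈ F0, b v = 0) {α β : ℝ}
    (hα : 0 ≤ α) (hβ : 0 ≤ β) (hαβ : α ^ 2 + β ^ 2 ≤ 1) :
    2 * α * nrm n a + β / 2 * nrm n b ≤ nrm n (a + b) + nrm n (a - b) := by
  have key : ∀ f ∈ D n, ∀ h ∈ D n,
      2 * α * ⟪f, a⟫ + β / 2 * ⟪h, b⟫ ≤ nrm n (a + b) + nrm n (a - b) := by
    intro f hf h hh
    obtain ⟨h1, h2, hadd, hh1, hh2, hmem⟩ := core hF0 (restr_mem_D hF0 hf) (half_mem_D hF0 hh)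
      (fun v hv => restr_apply_notMem f hv)
      (fun v hv => by
        have : restr F0ᶜ h v = 0 := restr_apply_notMem h (by simpa using hv)
        simp [this])
    obtain ⟨m1, m2⟩ := hmem α β hα hβ hαβ
    have i1 := inner_le_nrm m1 (a + b)
    have i2 := inner_le_nrm m2 (a - b)
    have e1 : ⟪restr F0 f, a⟫ = ⟪f, a⟫ := inner_restr f a ha
    have e2 : ⟪restr F0 f, b⟫ = 0 := inner_eq_zero_of_disj fun v => by
      by_cases hv : v ∈ F0
      · right; exact hb v hv
      · left; exact restr_apply_notMem f hv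
    have e3 : ⟪h1, a⟫ = 0 := inner_eq_zero_of_disj fun v => by
      by_cases hv : v ∈ F0
      · left; exact hh1 v hv
      · right; exact ha v hv
    have e4 : ⟪h2, a⟫ = 0 := inner_eq_zero_of_disj fun v => by
      by_cases hv : v ∈ F0
      · left; exact hh2 v hv
      · right; exact ha v hv
    have e5 : ⟪h1, b⟫ + ⟪h2, b⟫ = 1 / 2 * ⟪h, b⟫ := by
      rw [← inner_add_left, hadd, real_inner_smul_left,
        inner_restr h b (fun v hv => hb v (by simpa using hv))]
    simp only [inner_add_left, inner_sub_left, inner_add_right, inner_sub_right,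
      real_inner_smul_left, e1, e2, e3, e4] at i1 i2
    have e6 : β * ⟪h1, b⟫ + β * ⟪h2, b⟫ = β / 2 * ⟪h, b⟫ := by
      rw [← mul_add, e5]; ring
    linarith
  have key2 : ∀ f ∈ D n,
      2 * α * ⟪f, a⟫ ≤ nrm n (a + b) + nrm n (a - b) - β / 2 * nrm n b := by
    intro f hf
    have : β / 2 * nrm n b ≤ nrm n (a + b) + nrm n (a - b) - 2 * α * ⟪f, a⟫ :=
      mul_nrm_le (by positivity) fun h hh => by linarith [key f hf h hh]
    linarith
  have := mul_nrm_le (by positivity) key2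
  linarith

theorem two_point {n : ℕ} {F0 : Set (List ℕ)} (hF0 : ∀ k A, k :: A ∈ F0 → A ∈ F0)
    {a b : H} (ha : ∀ v, v ∉ F0 → a v = 0) (hb : ∀ v ∈ F0, b v = 0) :
    4 * (nrm n a ^ 2 + nrm n b ^ 2 / 16) ≤ (nrm n (a + b) + nrm n (a - b)) ^ 2 := by
  set p := nrm n a with hp
  set q := nrm n b with hq
  set R := Real.sqrt (p ^ 2 + q ^ 2 / 16) with hR
  have hp0 : 0 ≤ p := nrm_nonneg _ _
  have hq0 : 0 ≤ q := nrm_nonneg _ _
  have hR0 : 0 ≤ R := Real.sqrt_nonneg _
  have hR2 : R ^ 2 = p ^ 2 + q ^ 2 / 16 := Real.sq_sqrt (by positivity)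
  have hs0 : 0 ≤ nrm n (a + b) + nrm n (a - b) := add_nonneg (nrm_nonneg _ _) (nrm_nonneg _ _)
  rcases eq_or_lt_of_le hR0 with h0 | h0
  · rw [← hR2, ← h0]; nlinarith
  · have h := two_point_lin (n := n) hF0 ha hb (α := p / R) (β := q / 4 / R)
      (by positivity) (by positivity) (by
        have : (p / R) ^ 2 + (q / 4 / R) ^ 2 = (p ^ 2 + q ^ 2 / 16) / R ^ 2 := by
          field_simp; ring
        rw [this, hR2, div_self]
        rw [← hR2]; positivity)
    rw [← hp, ← hq] at h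
    have h1 : 2 * (p / R) * p + q / 4 / R / 2 * q = 2 * R := by
      have : 2 * (p / R) * p + q / 4 / R / 2 * q = 2 * (p ^ 2 + q ^ 2 / 16) / R := by
        field_simp; ring
      rw [this, ← hR2]; field_simp
    rw [h1] at h
    rw [← hR2]
    nlinarith

end Vale.Agent.P069
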