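import Vale.Agent.Lib.P069.Amuc

/-!
The norm of `X` is asymptotically midpoint uniformly convex.
-/

open scoped ENNReal NNReal Topology RealInnerProductSpace

namespace Vale.Agent.P069

/-- The coordinate of `x : X` in the block `n` at the node `v`. -/
noncomputable def coord (n : ℕ) (v : List ℕ) : X →L[ℝ] ℝ :=
  ((lp.evalCLM ℝ (fun _ : List ℕ => ℝ) 2 v).comp ((eqv n).symm : XN n →L[ℝ] H)).comp
    (lp.evalCLM ℝ (fun n : ℕ => XN n) 2 n)

/-- The block `n` of `x` as an element of `H`. -/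
noncomputable def blk (n : ℕ) (x : X) : H := (eqv n).symm (x n)

theorem coord_apply (n : ℕ) (v : List ℕ) (x : X) : coord n v x = blk n x v := rfl

theorem blk_add (n : ℕ) (x y : X) : blk n (x + y) = blk n x + blk n y := by
  simp only [blk, lp.coeFn_add, Pi.add_apply, map_add]

theorem blk_sub (n : ℕ) (x y : X) : blk n (x - y) = blk n x - blk n y := by
  simp only [blk, lp.coeFn_sub, Pi.sub_apply, map_sub]

theorem norm_eq_nrm_blk (n : ℕ) (x : X) : ‖x n‖ = nrm n (blk n x) := rfl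

/-- The subspace of `X` of vectors vanishing on the first `M` blocks at the nodes of `S`. -/
noncomputable def vanish (M : ℕ) (S : Finset (List ℕ)) : Submodule ℝ X :=
  LinearMap.ker (ContinuousLinearMap.pi (fun p : Fin M × S => coord p.1 p.2) :
    X →L[ℝ] (Fin M × S → ℝ)).toLinearMap

theorem mem_vanish {M : ℕ} {S : Finset (List ℕ)} {y : X} :
    y ∈ vanish M S ↔ ∀ n < M, ∀ v ∈ S, blk n y v = 0 := by
  rw [vanish, LinearMap.mem_ker]
  constructor
  · intro h n hn v hv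
    have := congrFun h (⟨n, hn⟩, ⟨v, hv⟩)
    exact this
  · intro h
    ext p
    exact h p.1 p.1.2 p.2 p.2.2

theorem vanish_mem_cof (M : ℕ) (S : Finset (List ℕ)) : vanish M S ∈ cof X := by
  constructor
  · exact ContinuousLinearMap.isClosed_ker _
  · exact (LinearMap.quotKerEquivRange _).symm.finiteDimensional

/-- Finitely supported vectors. -/
def FS : Submodule ℝ X where
  carrier := {x | ∃ (M : ℕ) (S : Finset (List ℕ)), ∀ n v, blk n x v ≠ 0 → n < M ∧ v ∈ S}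
  zero_mem' := ⟨0, ∅, fun n v h => absurd (by simp [blk]) h⟩
  add_mem' := by
    classical
    rintro x y ⟨M, S, h⟩ ⟨M', S', h'⟩
    refine ⟨max M M', S ∪ S', fun n v hv => ?_⟩
    by_cases h1 : blk n x v = 0
    · by_cases h2 : blk n y v = 0
      · exfalso; apply hv; rw [blk_add]; simp [h1, h2]
      · obtain ⟨h3, h4⟩ := h' n v h2
        exact ⟨lt_max_of_lt_right h3, Finset.mem_union_right _ h4⟩
    · obtain ⟨h3, h4⟩ := h n v h1
      exact ⟨lt_max_of_lt_left h3, Finset.mem_union_left _ h4⟩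
  smul_mem' := by
    rintro c x ⟨M, S, h⟩
    refine ⟨M, S, fun n v hv => h n v fun h0 => hv ?_⟩
    have : blk n (c • x) = c • blk n x := by simp [blk]
    rw [this]
    simp [h0]

/-- The inclusion of `H` as block `n` of `X`. -/
noncomputable def incl (n : ℕ) : H →L[ℝ] X :=
  (lp.singleContinuousLinearMap ℝ (fun n : ℕ => XN n) 2 n).comp (eqv n : H →L[ℝ] XN n)

theorem blk_incl_same (n : ℕ) (a : H) : blk n (incl n a) = a := by
  simp [blk, incl]

theorem blk_incl_ne {n m : ℕ} (h : m ≠ n) (a : H) : blk m (incl n a) = 0 := by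
  simp [blk, incl, h]

theorem incl_single_mem_FS (n : ℕ) (v : List ℕ) (c : ℝ) :
    incl n (lp.single 2 v c) ∈ FS := by
  refine ⟨n + 1, {v}, fun m w h => ?_⟩
  by_cases hm : m = n
  · subst hm
    rw [blk_incl_same] at h
    by_cases hw : w = v
    · subst hw; simp
    · exfalso; apply h; simp [hw]
  · exfalso; apply h; rw [blk_incl_ne hm]; rfl

theorem FS_dense (x : X) : x ∈ closure (FS : Set X) := by
  have hcl : IsClosed (FS.topologicalClosure : Set X) := FS.isClosed_topologicalClosure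
  have key : ∀ {ι : Type} (f : ι → X) (z : X), HasSum f z →
      (∀ i, f i ∈ FS.topologicalClosure) → z ∈ FS.topologicalClosure := by
    intro ι f z hz hf
    exact hcl.mem_of_tendsto hz (Filter.Eventually.of_forall fun s => Submodule.sum_mem _
      fun i _ => hf i)
  have h1 : ∀ n (a : H), incl n a ∈ FS.topologicalClosure := by
    intro n a
    have h2 := (incl n).hasSum (lp.hasSum_single (p := 2) (by norm_num) a)
    exact key _ _ h2 fun v => FS.le_topologicalClosure (incl_single_mem_FS n v _)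
  have h3 := lp.hasSum_single (p := 2) (by norm_num) x
  exact key _ _ h3 fun n => h1 n (blk n x)

theorem X_hasSum (x : X) : HasSum (fun n => (nrm n (blk n x)) ^ 2) (‖x‖ ^ 2) := lp2_hasSum x

theorem two_point_X {M : ℕ} {S : Finset (List ℕ)} (hS : ∀ k A, k :: A ∈ S → A ∈ S) {x y : X}
    (hx : ∀ n v, blk n x v ≠ 0 → n < M ∧ v ∈ S) (hy : y ∈ vanish M S) :
    2 * Real.sqrt (‖x‖ ^ 2 + ‖y‖ ^ 2 / 16) ≤ ‖x + y‖ + ‖x - y‖ := by
  rw [mem_vanish] at hy
  -- blockwise inequality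
  have hblk : ∀ n, 4 * (nrm n (blk n x) ^ 2 + nrm n (blk n y) ^ 2 / 16) ≤
      (‖(x + y) n‖ + ‖(x - y) n‖) ^ 2 := by
    intro n
    rw [norm_eq_nrm_blk, norm_eq_nrm_blk, blk_add, blk_sub]
    by_cases hn : n < M
    · apply two_point (F0 := (S : Set (List ℕ)))
      · intro k A h; exact hS k A h
      · intro v hv
        by_contra h0
        exact hv (hx n v h0).2
      · intro v hv
        exact hy n hn v hv
    · apply two_point (F0 := ∅)
      · simp
      · intro v _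
        by_contra h0
        exact hn (hx n v h0).1
      · simp
  let P : lp (fun _ : ℕ => ℝ) 2 := lp.toNorm (x + y)
  let Q : lp (fun _ : ℕ => ℝ) 2 := lp.toNorm (x - y)
  have hP : ‖P‖ = ‖x + y‖ := lp.norm_toNorm
  have hQ : ‖Q‖ = ‖x - y‖ := lp.norm_toNorm
  have hPQ : ‖P + Q‖ ≤ ‖x + y‖ + ‖x - y‖ := by rw [← hP, ← hQ]; exact norm_add_le _ _
  have h1 : HasSum (fun n => (‖(x + y) n‖ + ‖(x - y) n‖) ^ 2) (‖P + Q‖ ^ 2) := by
    have := lp2_hasSum (P + Q)
    convert this using 2 with n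
    have : (P + Q) n = ‖(x + y) n‖ + ‖(x - y) n‖ := rfl
    rw [this, Real.norm_eq_abs, sq_abs]
  have h2 : HasSum (fun n => 4 * (nrm n (blk n x) ^ 2 + nrm n (blk n y) ^ 2 / 16))
      (4 * (‖x‖ ^ 2 + ‖y‖ ^ 2 / 16)) :=
    ((X_hasSum x).add ((X_hasSum y).div_const 16)).mul_left 4
  have h3 : 4 * (‖x‖ ^ 2 + ‖y‖ ^ 2 / 16) ≤ ‖P + Q‖ ^ 2 := hasSum_le hblk h2 h1
  have h4 : 2 * Real.sqrt (‖x‖ ^ 2 + ‖y‖ ^ 2 / 16) ≤ ‖P + Q‖ := by
    have h5 : (2 * Real.sqrt (‖x‖ ^ 2 + ‖y‖ ^ 2 / 16)) ^ 2 ≤ ‖P + Q‖ ^ 2 := by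
      rw [mul_pow, Real.sq_sqrt (by positivity)]
      linarith
    exact (pow_le_pow_iff_left₀ (by positivity) (norm_nonneg _) two_ne_zero).1 h5
  linarith

theorem sqrt_lip {a b c : ℝ} (hc : 0 ≤ c) (ha : 0 ≤ a) (_hb : 0 ≤ b) :
    Real.sqrt (a ^ 2 + c) ≤ Real.sqrt (b ^ 2 + c) + |a - b| := by
  rw [Real.sqrt_le_left (by positivity)]
  have h1 : Real.sqrt (b ^ 2 + c) ^ 2 = b ^ 2 + c := Real.sq_sqrt (by positivity)
  have h2 : b ≤ Real.sqrt (b ^ 2 + c) := Real.le_sqrt_of_sq_le (by linarith)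
  have h3 : a ≤ b + |a - b| := by linarith [le_abs_self (a - b)]
  have h4 : a ^ 2 ≤ (b + |a - b|) ^ 2 := pow_le_pow_left₀ ha h3 2
  nlinarith [abs_nonneg (a - b)]

theorem two_point_asym (x : X) {ε : ℝ} (hε : 0 < ε) :
    ∃ F ∈ cof X, ∀ y ∈ F,
      2 * Real.sqrt (‖x‖ ^ 2 + ‖y‖ ^ 2 / 16) - ε ≤ ‖x + y‖ + ‖x - y‖ := by
  classical
  obtain ⟨x', hx', hd⟩ := Metric.mem_closure_iff.1 (FS_dense x) (ε / 4) (by positivity)
  obtain ⟨M, S, hS⟩ := hx'
  let S' : Finset (List ℕ) := S.biUnion fun A => A.tails.toFinset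
  have hmem : ∀ A, A ∈ S' ↔ ∃ B ∈ S, A <:+ B := by
    intro A; simp [S']
  have hclosed : ∀ k A, k :: A ∈ S' → A ∈ S' := by
    intro k A h
    rw [hmem] at h ⊢
    obtain ⟨B, hB, hs⟩ := h
    exact ⟨B, hB, (List.suffix_cons k A).trans hs⟩
  refine ⟨vanish M S', vanish_mem_cof M S', fun y hy => ?_⟩
  have h := two_point_X (M := M) hclosed (x := x') (y := y)
    (fun n v hv => ⟨(hS n v hv).1, (hmem v).2 ⟨v, (hS n v hv).2, List.suffix_refl v⟩⟩) hy
  rw [dist_eq_norm] at hd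
  have h1 : ‖x' + y‖ ≤ ‖x + y‖ + ‖x - x'‖ := by
    have : x' + y = (x + y) - (x - x') := by abel
    rw [this]; exact norm_sub_le _ _
  have h2 : ‖x' - y‖ ≤ ‖x - y‖ + ‖x - x'‖ := by
    have : x' - y = (x - y) - (x - x') := by abel
    rw [this]; exact norm_sub_le _ _
  have h3 := sqrt_lip (c := ‖y‖ ^ 2 / 16) (by positivity) (norm_nonneg x) (norm_nonneg x')
  have h4 : |‖x‖ - ‖x'‖| ≤ ‖x - x'‖ := abs_norm_sub_norm_le _ _
  linarith

end Vale.Agent.P069
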