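import Vale.Agent.Lib.P069.AmucX

/-!
Main argument for P069.
-/

open scoped ENNReal NNReal Topology RealInnerProductSpace

namespace Vale.Agent.P069

theorem amuc_lower (t : ℝ) (ht : 0 < t) :
    ((Real.sqrt (1 + t ^ 2 / 16) - 1 : ℝ) : EReal) ≤ amucModulus (normSeminorm ℝ X) t := by
  unfold amucModulus
  refine le_iInf₂ fun x hx => ?_
  simp only [Set.mem_ofPred_eq, coe_normSeminorm] at hx
  -- it is enough to beat the bound up to `ε`
  refine EReal.ge_of_forall_gt_iff_ge.1 fun c hc => ?_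
  have hc' : c < Real.sqrt (1 + t ^ 2 / 16) - 1 := by exact_mod_cast hc
  obtain ⟨F, hF, h⟩ := two_point_asym x (ε := 2 * (Real.sqrt (1 + t ^ 2 / 16) - 1 - c))
    (by linarith)
  refine le_trans ?_ (le_iSup₂ F hF)
  refine le_iInf₂ fun y hy => ?_
  obtain ⟨hyF, hy1⟩ := hy
  simp only [coe_normSeminorm] at hy1 ⊢
  have h1 := h (t • y) (F.smul_mem t hyF)
  rw [norm_smul, Real.norm_of_nonneg ht.le, hy1, hx] at h1
  have h2 : ‖x + t • y‖ ≤ max ‖x + t • y‖ ‖x - t • y‖ := le_max_left _ _
  have h3 : ‖x - t • y‖ ≤ max ‖x + t • y‖ ‖x - t • y‖ := le_max_right _ _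
  norm_num at h1
  have h4 : c ≤ max ‖x + t • y‖ ‖x - t • y‖ - 1 := by linarith
  exact_mod_cast h4

theorem amuc_norm : IsAMUC (normSeminorm ℝ X) := by
  intro t ht
  refine lt_of_lt_of_le ?_ (amuc_lower t ht)
  have : 0 < Real.sqrt (1 + t ^ 2 / 16) - 1 := by
    have : Real.sqrt 1 < Real.sqrt (1 + t ^ 2 / 16) :=
      Real.sqrt_lt_sqrt (by norm_num) (by nlinarith [sq_pos_of_pos ht])
    rw [Real.sqrt_one] at this
    linarith
  exact_mod_cast this

theorem exists_delta {N : Seminorm ℝ X} {t : ℝ} (h : 0 < aucModulus N t) :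
    ∃ δ : ℝ, 0 < δ ∧ ∀ x : X, N x = 1 → ∃ F ∈ cof X, ∀ y ∈ F, N y = 1 →
      1 + δ ≤ N (x + t • y) := by
  obtain ⟨δ, hδ0, hδ⟩ := EReal.lt_iff_exists_real_btwn.1 h
  refine ⟨δ, by exact_mod_cast hδ0, fun x hx => ?_⟩
  have h1 : (δ : EReal) < ⨆ F ∈ cof X, ⨅ y ∈ {y : X | y ∈ F ∧ N y = 1},
      ((N (x + t • y) - 1 : ℝ) : EReal) := lt_of_lt_of_le hδ (iInf₂_le x hx)
  simp only [lt_iSup_iff] at h1
  obtain ⟨F, hF, h2⟩ := h1
  refine ⟨F, hF, fun y hyF hy => ?_⟩
  have h3 := lt_of_lt_of_le h2 (iInf₂_le (i := y) (j := (⟨hyF, hy⟩ : y ∈ F ∧ N y = 1)))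
  have h4 : δ < N (x + t • y) - 1 := by exact_mod_cast h3
  linarith

/-- unit vector at a node -/
noncomputable def eH (v : List ℕ) : H := lp.single 2 v (1 : ℝ)

/-- branch sums -/
noncomputable def sH : List ℕ → H
  | [] => eH []
  | (k :: A) => eH (k :: A) + sH A

theorem inner_eH (f : H) (v : List ℕ) : ⟪f, eH v⟫ = f v := by
  rw [eH, lp.inner_single_right]
  simp

theorem inner_sH (f : H) (A : List ℕ) : ⟪f, sH A⟫ = psum f A := by
  induction A with
  | nil => exact inner_eH f []
  | cons k A ih => rw [sH, inner_add_right, ih, inner_eH, psum_cons]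

theorem nrm_sH_le {n : ℕ} {A : List ℕ} (hA : A.length ≤ n) : nrm n (sH A) ≤ 1 := by
  apply nrm_le
  intro f hf
  rw [inner_sH]
  exact (abs_le.1 (hf.2 A hA)).2

theorem psum_eH_of_lt (v : List ℕ) : ∀ A : List ℕ, A.length < v.length → psum (eH v) A = 0 := by
  intro A
  have key : ∀ w : List ℕ, w.length < v.length → eH v w = 0 := by
    intro w hw
    have : w ≠ v := by rintro rfl; exact lt_irrefl _ hw
    simp [eH, this]
  induction A with
  | nil => intro h; exact key _ h
  | cons k A ih =>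
    intro h
    rw [psum_cons, key _ h, ih (by simp only [List.length_cons] at h; omega), add_zero]

theorem abs_psum_eH_le (v A : List ℕ) : |psum (eH v) A| ≤ 1 := by
  induction A with
  | nil =>
    rw [psum_nil]
    by_cases h : [] = v
    · subst h; simp [eH]
    · simp [eH, h]
  | cons k A ih =>
    by_cases h : k :: A = v
    · subst h
      rw [psum_cons, psum_eH_of_lt _ A (by simp)]
      simp [eH]
    · have : eH v (k :: A) = 0 := by simp [eH, h]
      rw [psum_cons, this, zero_add]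
      exact ih

theorem norm_eH (v : List ℕ) : ‖eH v‖ = 1 := by
  rw [eH, lp.norm_single (by norm_num)]; simp

theorem one_le_nrm_eH (n : ℕ) (v : List ℕ) : 1 ≤ nrm n (eH v) := by
  have hmem : eH v ∈ D n := ⟨(norm_eH v).le, fun A _ => abs_psum_eH_le v A⟩
  have := inner_le_nrm hmem (eH v)
  rwa [real_inner_self_eq_norm_sq, norm_eH, one_pow] at this

theorem norm_incl (n : ℕ) (a : H) : ‖incl n a‖ = nrm n a := by
  simp only [incl, ContinuousLinearMap.comp_apply, lp.singleContinuousLinearMap_apply]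
  rw [lp.norm_single (by norm_num)]
  rfl

theorem tendsto_apply_zero (w : H) (A : List ℕ) :
    Filter.Tendsto (fun k : ℕ => w (k :: A)) Filter.atTop (𝓝 0) := by
  have h1 := (H_hasSum w).summable.tendsto_cofinite_zero
  have hinj : Function.Injective (fun k : ℕ => k :: A) := fun a b h => by
    simpa using h
  have h2 := h1.comp hinj.tendsto_cofinite
  rw [Nat.cofinite_eq_atTop] at h2
  have h3 := h2.sqrt
  simp only [Function.comp_def, Real.sqrt_zero, Real.sqrt_sq_eq_abs] at h3
  exact (tendsto_zero_iff_abs_tendsto_zero _).2 h3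

theorem exists_near {F : Submodule ℝ X} (hF : F ∈ cof X) (n : ℕ) (A : List ℕ) {η : ℝ}
    (hη : 0 < η) : ∃ k : ℕ, ∃ z ∈ F, ‖incl n (eH (k :: A)) - z‖ < η := by
  have : IsClosed (F : Set X) := hF.1
  have : FiniteDimensional ℝ (X ⧸ F) := hF.2
  let T : H →L[ℝ] (X ⧸ F) := F.mkQL.comp (incl n)
  have hT : Filter.Tendsto (fun k : ℕ => T (eH (k :: A))) Filter.atTop (𝓝 0) := by
    let b := Module.finBasis ℝ (X ⧸ F)
    have h1 : ∀ i, Filter.Tendsto (fun k : ℕ => b.repr (T (eH (k :: A))) i) Filter.atTop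
        (𝓝 0) := by
      intro i
      let l : (X ⧸ F) →L[ℝ] ℝ := LinearMap.toContinuousLinearMap (b.coord i)
      obtain ⟨w, hw⟩ := (InnerProductSpace.toDual ℝ H).surjective (l.comp T)
      have h2 : ∀ v, b.repr (T (eH v)) i = w v := by
        intro v
        have h3 := congrArg (fun Ψ : StrongDual ℝ H => Ψ (eH v)) hw
        simp only [InnerProductSpace.toDual_apply_apply, inner_eH] at h3
        rw [h3]
        rfl
      simp only [h2]
      exact tendsto_apply_zero w A
    have h2 : Filter.Tendsto (fun k : ℕ => ∑ i, b.repr (T (eH (k :: A))) i • b i) Filter.atTop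
        (𝓝 (∑ i, (0 : ℝ) • b i)) :=
      tendsto_finsetSum _ fun i _ => (h1 i).smul_const (b i)
    simp only [b.sum_repr, zero_smul, Finset.sum_const_zero] at h2
    exact h2
  have h2 := (tendsto_zero_iff_norm_tendsto_zero.1 hT).eventually (gt_mem_nhds hη)
  obtain ⟨k, hk⟩ := h2.exists
  obtain ⟨m, hm1, hm2⟩ := Submodule.Quotient.norm_mk_lt (S := F) (T (eH (k :: A)))
    (ε := η - ‖T (eH (k :: A))‖) (by linarith)
  refine ⟨k, incl n (eH (k :: A)) - m, ?_, ?_⟩
  · rw [← Submodule.Quotient.mk_eq_zero F, Submodule.Quotient.mk_sub, hm1]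
    exact sub_self _
  · rw [sub_sub_cancel]
    linarith

theorem auc_step {N : Seminorm ℝ X} {c C δ : ℝ} (hc : 0 < c) (hcC : c ≤ C)
    (hN : ∀ x : X, c * ‖x‖ ≤ N x ∧ N x ≤ C * ‖x‖) (hδ : 0 < δ)
    (hA : ∀ x : X, N x = 1 → ∃ F ∈ cof X, ∀ y ∈ F, N y = 1 →
      1 + δ ≤ N (x + (c / (2 * C)) • y)) (n : ℕ) (x : X) {r : ℝ} (hr : c ≤ r) (hxr : N x = r)
    (hrC : r ≤ C) (A : List ℕ) :
    ∃ k : ℕ, r * (1 + δ / 2) ≤ N (x + incl n (eH (k :: A))) := by
  have hC : 0 < C := lt_of_lt_of_le hc hcC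
  have hr0 : 0 < r := lt_of_lt_of_le hc hr
  obtain ⟨F, hF, hF2⟩ := hA (r⁻¹ • x) (by
    rw [map_smul_eq_mul, hxr, Real.norm_of_nonneg (inv_nonneg.2 hr0.le), inv_mul_cancel₀ hr0.ne'])
  obtain ⟨k, z, hzF, hz⟩ := exists_near hF n A (η := min (1 / 2) (r * δ / (2 * C)) * (c / C))
    (by positivity)
  have hcC1 : c / C ≤ 1 := (div_le_one hC).2 hcC
  have hmin0 : 0 ≤ min (1 / 2) (r * δ / (2 * C)) := by positivity
  have hz1 : ‖incl n (eH (k :: A)) - z‖ * C ≤ c / 2 := by
    have h1 : ‖incl n (eH (k :: A)) - z‖ ≤ 1 / 2 * (c / C) :=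
      hz.le.trans (mul_le_mul_of_nonneg_right (min_le_left _ _) (by positivity))
    calc _ ≤ 1 / 2 * (c / C) * C := mul_le_mul_of_nonneg_right h1 hC.le
      _ = c / 2 := by field_simp
  have hz2 : C * ‖incl n (eH (k :: A)) - z‖ ≤ r * δ / 2 := by
    have h1 : ‖incl n (eH (k :: A)) - z‖ ≤ r * δ / (2 * C) * 1 :=
      hz.le.trans (mul_le_mul (min_le_right _ _) hcC1 (by positivity) (by positivity))
    calc _ ≤ C * (r * δ / (2 * C) * 1) := mul_le_mul_of_nonneg_left h1 hC.le
      _ = r * δ / 2 := by field_simp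
  refine ⟨k, ?_⟩
  set e := incl n (eH (k :: A)) with he
  have he1 : 1 ≤ ‖e‖ := by rw [he, norm_incl]; exact one_le_nrm_eH n _
  have hNe : c ≤ N e := by
    have := (hN e).1
    nlinarith
  have hNez : N (e - z) ≤ c / 2 := by
    have := (hN (e - z)).2
    linarith
  have hNez2 : N (e - z) ≤ r * δ / 2 := (hN (e - z)).2.trans hz2
  have hNz : c / 2 ≤ N z := by
    have h1 : N e ≤ N (e - z) + N z := by
      have := map_add_le_add N (e - z) z
      rwa [sub_add_cancel] at this
    linarith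
  have hNz0 : 0 < N z := by linarith
  -- the convexity argument
  set ρ := N z with hρ
  set lam := r * (c / (2 * C)) / ρ with hlam
  have hlam0 : 0 < lam := by positivity
  have hlam1 : lam ≤ 1 := by
    rw [hlam, div_le_one hNz0]
    have : r * (c / (2 * C)) ≤ C * (c / (2 * C)) := mul_le_mul_of_nonneg_right hrC (by positivity)
    have h2 : C * (c / (2 * C)) = c / 2 := by field_simp
    linarith
  have h1 := hF2 (ρ⁻¹ • z) (F.smul_mem _ hzF) (by
    rw [map_smul_eq_mul, Real.norm_of_nonneg (inv_nonneg.2 hNz0.le), inv_mul_cancel₀ hNz0.ne'])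
  have h2 : r * (1 + δ) ≤ N ((1 - lam) • x + lam • (x + z)) := by
    have e1 : (1 - lam) • x + lam • (x + z) =
        r • (r⁻¹ • x + (c / (2 * C)) • (ρ⁻¹ • z)) := by
      have e2 : (1 - lam) • x + lam • (x + z) = x + lam • z := by module
      rw [e2, smul_add, smul_smul, mul_inv_cancel₀ hr0.ne', one_smul, smul_smul, smul_smul, hlam,
        div_eq_mul_inv, mul_assoc r]
    rw [e1, map_smul_eq_mul, Real.norm_of_nonneg hr0.le]
    exact mul_le_mul_of_nonneg_left h1 hr0.le
  have h3 : N ((1 - lam) • x + lam • (x + z)) ≤ (1 - lam) * r + lam * N (x + z) := by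
    refine (map_add_le_add N _ _).trans ?_
    rw [map_smul_eq_mul, map_smul_eq_mul, hxr, Real.norm_of_nonneg (by linarith),
      Real.norm_of_nonneg hlam0.le]
  have h4 : r * (1 + δ) ≤ N (x + z) := by
    have h5 : lam * (r * (1 + δ)) ≤ lam * N (x + z) := by
      have : lam * (r * (1 + δ)) ≤ r * (1 + δ) - (1 - lam) * r := by
        have : 0 ≤ (1 - lam) * (r * δ) := mul_nonneg (by linarith) (by positivity)
        nlinarith
      linarith
    exact le_of_mul_le_mul_left h5 hlam0
  have h5 : N (x + z) ≤ N (x + e) + N (e - z) := by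
    have e1 : x + z = (x + e) - (e - z) := by abel
    rw [e1]
    exact map_sub_le_add N _ _
  nlinarith

theorem not_auc_renormable : ¬ AUCRenormable X := by
  rintro ⟨N, ⟨c, C, hc, hN⟩, hAUC⟩
  have hcC : c ≤ C := by
    have h := hN (incl 0 (eH []))
    have h1 : ‖incl 0 (eH [])‖ = 1 := by
      rw [norm_incl]
      exact le_antisymm ((nrm_le_norm _ _).trans (norm_eH _).le) (one_le_nrm_eH _ _)
    rw [h1] at h
    linarith [h.1, h.2]
  have hC : 0 < C := lt_of_lt_of_le hc hcC
  obtain ⟨δ, hδ, hA⟩ := exists_delta (hAUC (c / (2 * C)) (by positivity))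
  -- grow a branch in block `n`
  have key : ∀ n j : ℕ, j ≤ n → ∃ A : List ℕ, A.length = j ∧
      c * (1 + δ / 2) ^ j ≤ N (incl n (sH A)) := by
    intro n j
    induction j with
    | zero =>
      intro _
      refine ⟨[], rfl, ?_⟩
      have h := (hN (incl n (sH []))).1
      have h1 : 1 ≤ ‖incl n (sH [])‖ := by rw [norm_incl]; exact one_le_nrm_eH n []
      simp only [pow_zero, mul_one]
      nlinarith
    | succ j ih =>
      intro hj
      obtain ⟨A, hAl, hAN⟩ := ih (by omega)
      have hpow : 1 ≤ (1 + δ / 2) ^ j := one_le_pow₀ (by linarith)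
      have hr : c ≤ N (incl n (sH A)) := by nlinarith
      have hrC : N (incl n (sH A)) ≤ C := by
        have h1 := (hN (incl n (sH A))).2
        have h2 : ‖incl n (sH A)‖ ≤ 1 := by rw [norm_incl]; exact nrm_sH_le (by omega)
        nlinarith
      obtain ⟨k, hk⟩ := auc_step hc hcC hN hδ hA n (incl n (sH A)) hr rfl hrC A
      refine ⟨k :: A, by simp [hAl], ?_⟩
      have e1 : incl n (sH (k :: A)) = incl n (sH A) + incl n (eH (k :: A)) := by
        rw [sH, map_add, add_comm]
      rw [e1]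
      refine le_trans ?_ hk
      rw [pow_succ, ← mul_assoc]
      exact mul_le_mul_of_nonneg_right hAN (by positivity)
  obtain ⟨n, hn⟩ := pow_unbounded_of_one_lt (C / c) (show 1 < 1 + δ / 2 by linarith)
  obtain ⟨A, hAl, hAN⟩ := key n n le_rfl
  have h1 := (hN (incl n (sH A))).2
  have h2 : ‖incl n (sH A)‖ ≤ 1 := by rw [norm_incl]; exact nrm_sH_le (by omega)
  rw [div_lt_iff₀ hc] at hn
  nlinarith

theorem not_finiteDimensional_X : ¬ FiniteDimensional ℝ X := by
  intro hfin
  apply not_auc_renormable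
  refine ⟨normSeminorm ℝ X, ⟨1, 1, one_pos, fun x => by simp⟩, fun t _ => ?_⟩
  have hbot : (⊥ : Submodule ℝ X) ∈ cof X := by
    refine ⟨?_, ?_⟩
    · have : ((⊥ : Submodule ℝ X) : Set X) = {0} := by simp
      rw [this]
      exact isClosed_singleton
    · infer_instance
  have htop : aucModulus (normSeminorm ℝ X) t = ⊤ := by
    unfold aucModulus
    simp only [iInf_eq_top]
    intro x _
    rw [eq_top_iff]
    refine le_trans ?_ (le_iSup₂ (⊥ : Submodule ℝ X) hbot)
    refine le_iInf₂ fun y hy => ?_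
    exfalso
    obtain ⟨h1, h2⟩ := hy
    rw [Submodule.mem_bot] at h1
    rw [h1, map_zero] at h2
    exact zero_ne_one h2
  rw [htop]
  exact EReal.zero_lt_top

theorem separable_X : TopologicalSpace.SeparableSpace X := by
  rw [← TopologicalSpace.isSeparable_univ_iff]
  let S : Submodule ℝ X := Submodule.span ℝ (Set.range fun p : ℕ × List ℕ => incl p.1 (eH p.2))
  have hS : TopologicalSpace.IsSeparable (closure (S : Set X)) :=
    ((Set.countable_range _).isSeparable.span).closure
  refine hS.mono fun x _ => ?_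
  have hcl : IsClosed (S.topologicalClosure : Set X) := S.isClosed_topologicalClosure
  have key : ∀ {ι : Type} (f : ι → X) (z : X), HasSum f z →
      (∀ i, f i ∈ S.topologicalClosure) → z ∈ S.topologicalClosure := by
    intro ι f z hz hf
    exact hcl.mem_of_tendsto hz (Filter.Eventually.of_forall fun s => Submodule.sum_mem _
      fun i _ => hf i)
  have h1 : ∀ n (a : H), incl n a ∈ S.topologicalClosure := by
    intro n a
    have h2 := (incl n).hasSum (lp.hasSum_single (p := 2) (by norm_num) a)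
    refine key _ _ h2 fun v => S.le_topologicalClosure ?_
    have h3 : lp.single 2 v (a v) = a v • eH v := by
      rw [eH, ← lp.single_smul, smul_eq_mul, mul_one]
    simp only [h3, map_smul]
    exact S.smul_mem _ (Submodule.subset_span ⟨(n, v), rfl⟩)
  have h3 := lp.hasSum_single (p := 2) (by norm_num) x
  exact key _ _ h3 fun n => h1 n (blk n x)

end Vale.Agent.P069
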