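import Vale.Agent.Lib.P069.Defs

/-!
Reflexivity: invariance under isomorphisms, Hilbert spaces, `ℓ²`-sums.
-/

open scoped ENNReal NNReal Topology

namespace Vale.Agent.P069

section iso

variable {X Y : Type*} [NormedAddCommGroup X] [NormedSpace ℝ X]
  [NormedAddCommGroup Y] [NormedSpace ℝ Y]

theorem ReflexiveSpace.of_equiv (e : X ≃L[ℝ] Y) (h : ReflexiveSpace X) : ReflexiveSpace Y := by
  intro Φ
  -- pull back
  let R : StrongDual ℝ X →L[ℝ] StrongDual ℝ Y :=
    ContinuousLinearMap.precomp ℝ (e.symm : Y →L[ℝ] X)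
  obtain ⟨x, hx⟩ := h (Φ.comp R)
  refine ⟨e x, ?_⟩
  ext f
  have h1 := congrArg (fun Ψ : StrongDual ℝ (StrongDual ℝ X) => Ψ (f.comp (e : X →L[ℝ] Y))) hx
  simp only [NormedSpace.dual_def, ContinuousLinearMap.comp_apply] at h1
  rw [NormedSpace.dual_def]
  have h2 : R (f.comp (e : X →L[ℝ] Y)) = f := by
    ext y
    simp [R]
  rw [h2] at h1
  simpa using h1

theorem reflexive_of_hilbert {H : Type*} [NormedAddCommGroup H] [InnerProductSpace ℝ H]
    [CompleteSpace H] : ReflexiveSpace H := by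
  intro Φ
  let T : H →L[ℝ] StrongDual ℝ H :=
    { toFun := fun y => InnerProductSpace.toDual ℝ H y
      map_add' := fun x y => map_add _ x y
      map_smul' := fun c x => by simp
      cont := (InnerProductSpace.toDual ℝ H).continuous }
  obtain ⟨z, hz⟩ := (InnerProductSpace.toDual ℝ H).surjective (Φ.comp T)
  refine ⟨z, ?_⟩
  ext f
  obtain ⟨y, rfl⟩ := (InnerProductSpace.toDual ℝ H).surjective f
  have h1 := congrArg (fun Ψ : StrongDual ℝ H => Ψ y) hz
  simp only [InnerProductSpace.toDual_apply_apply, ContinuousLinearMap.comp_apply] at h1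
  rw [NormedSpace.dual_def]
  simp only [InnerProductSpace.toDual_apply_apply]
  rw [real_inner_comm, h1]
  rfl

end iso

section lp

variable {E : ℕ → Type*} [∀ n, NormedAddCommGroup (E n)] 

theorem lp2_hasSum (x : lp E 2) : HasSum (fun n => ‖x n‖ ^ 2) (‖x‖ ^ 2) := by
  have h := lp.hasSum_norm (p := 2) (by norm_num) x
  simpa using h

theorem lp2_sum_le (x : lp E 2) (s : Finset ℕ) : ∑ n ∈ s, ‖x n‖ ^ 2 ≤ ‖x‖ ^ 2 :=
  sum_le_hasSum s (fun _ _ => by positivity) (lp2_hasSum x)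

theorem lp2_norm_sum_single (s : Finset ℕ) (x : ∀ n, E n) :
    ‖∑ n ∈ s, lp.single (E := E) 2 n (x n)‖ ^ 2 = ∑ n ∈ s, ‖x n‖ ^ 2 := by
  have h := lp.norm_sum_single (p := 2) (E := E) (by norm_num) x s
  simpa using h

theorem memlp2_of_bound {x : ∀ n, E n} {C : ℝ} (h : ∀ s : Finset ℕ, ∑ n ∈ s, ‖x n‖ ^ 2 ≤ C) :
    Memℓp x 2 := by
  apply memℓp_gen' (C := C)
  intro s
  simpa using h s

variable [∀ n, NormedSpace ℝ (E n)]

theorem norm_sum_comp_le (s : Finset ℕ) (g : ∀ n, StrongDual ℝ (E n)) :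
    ‖∑ n ∈ s, (g n).comp (lp.evalCLM ℝ E 2 n)‖ ≤ Real.sqrt (∑ n ∈ s, ‖g n‖ ^ 2) := by
  apply ContinuousLinearMap.opNorm_le_bound _ (Real.sqrt_nonneg _)
  intro x
  have h1 : ‖(∑ n ∈ s, (g n).comp (lp.evalCLM ℝ E 2 n)) x‖ ≤ ∑ n ∈ s, ‖g n‖ * ‖x n‖ := by
    rw [sum_apply]
    refine (norm_sum_le _ _).trans (Finset.sum_le_sum fun n _ => ?_)
    exact (g n).le_opNorm (x n)
  refine h1.trans ((Real.sum_mul_le_sqrt_mul_sqrt s _ _).trans ?_)
  refine mul_le_mul_of_nonneg_left ?_ (Real.sqrt_nonneg _)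
  rw [Real.sqrt_le_left (norm_nonneg _)]
  exact lp2_sum_le x s

theorem reflexive_lp (h : ∀ n, ReflexiveSpace (E n)) : ReflexiveSpace (lp E 2) := by
  classical
  intro Φ
  -- coordinates
  have hz : ∀ n, ∃ z : E n, ∀ g : StrongDual ℝ (E n), g z = Φ (g.comp (lp.evalCLM ℝ E 2 n)) := by
    intro n
    obtain ⟨z, hz⟩ := h n (Φ.comp (ContinuousLinearMap.precomp ℝ (lp.evalCLM ℝ E 2 n)))
    refine ⟨z, fun g => ?_⟩
    have := congrArg (fun Ψ : StrongDual ℝ (StrongDual ℝ (E n)) => Ψ g) hz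
    simpa using this
  choose z hz using hz
  have hzmem : Memℓp z 2 := by
    apply memlp2_of_bound (C := ‖Φ‖ ^ 2)
    intro s
    have hg : ∀ n, ∃ g : StrongDual ℝ (E n), ‖g‖ ≤ 1 ∧ g (z n) = ‖z n‖ := by
      intro n
      obtain ⟨g, hg1, hg2⟩ := exists_dual_vector'' ℝ (z n)
      exact ⟨g, hg1, by simpa using hg2⟩
    choose g hg1 hg2 using hg
    set S := ∑ n ∈ s, ‖z n‖ ^ 2 with hS
    have hS0 : 0 ≤ S := Finset.sum_nonneg fun _ _ => by positivity
    let φ : StrongDual ℝ (lp E 2) := ∑ n ∈ s, (‖z n‖ • g n).comp (lp.evalCLM ℝ E 2 n)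
    have h1 : Φ φ = S := by
      simp only [φ, map_sum]
      apply Finset.sum_congr rfl
      intro n _
      rw [← hz]
      simp [hg2, sq]
    have h2 : ‖φ‖ ≤ Real.sqrt S := by
      refine (norm_sum_comp_le s _).trans (Real.sqrt_le_sqrt ?_)
      apply Finset.sum_le_sum
      intro n _
      rw [norm_smul, norm_norm]
      have := hg1 n
      have h3 : ‖z n‖ * ‖g n‖ ≤ ‖z n‖ := by
        nlinarith [norm_nonneg (z n)]
      exact pow_le_pow_left₀ (by positivity) h3 2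
    have h3 : S ≤ ‖Φ‖ * Real.sqrt S := by
      rw [← h1]
      refine (le_abs_self _).trans ?_
      refine (Φ.le_opNorm φ).trans ?_
      rw [h1]
      exact mul_le_mul_of_nonneg_left h2 (norm_nonneg _)
    have h4 : Real.sqrt S ≤ ‖Φ‖ := by
      rcases eq_or_lt_of_le (Real.sqrt_nonneg S) with h0 | h0
      · rw [← h0]; exact norm_nonneg Φ
      · have h5 : Real.sqrt S * Real.sqrt S ≤ ‖Φ‖ * Real.sqrt S := by
          rwa [Real.mul_self_sqrt hS0]
        exact le_of_mul_le_mul_right h5 h0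
    calc S = Real.sqrt S ^ 2 := (Real.sq_sqrt hS0).symm
      _ ≤ ‖Φ‖ ^ 2 := pow_le_pow_left₀ (Real.sqrt_nonneg _) h4 2
  let Z : lp E 2 := ⟨z, hzmem⟩
  refine ⟨Z, ?_⟩
  ext ψ
  rw [NormedSpace.dual_def]
  let ψn : ∀ n, StrongDual ℝ (E n) := fun n => ψ.comp (lp.singleContinuousLinearMap ℝ E 2 n)
  have hsum : Summable fun n => ‖ψn n‖ ^ 2 := by
    apply summable_of_sum_le (c := 4 * ‖ψ‖ ^ 2) (fun _ => by positivity)
    intro s
    have hx : ∀ n, ∃ x : E n, ‖x‖ ≤ 1 ∧ ‖ψn n‖ ≤ 2 * ψn n x := by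
      intro n
      rcases eq_or_lt_of_le (norm_nonneg (ψn n)) with h0 | h0
      · exact ⟨0, by simp, by simp [← h0]⟩
      · obtain ⟨x, hx1, hx2⟩ := (ψn n).exists_lt_apply_of_lt_opNorm
          (show ‖ψn n‖ / 2 < ‖ψn n‖ by linarith)
        rcases le_total 0 (ψn n x) with h3 | h3
        · rw [Real.norm_of_nonneg h3] at hx2
          exact ⟨x, hx1.le, by linarith⟩
        · rw [Real.norm_of_nonpos h3] at hx2
          exact ⟨-x, by simpa using hx1.le, by rw [map_neg]; linarith⟩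
    choose x hx1 hx2 using hx
    set S := ∑ n ∈ s, ‖ψn n‖ ^ 2 with hS
    have hS0 : 0 ≤ S := Finset.sum_nonneg fun _ _ => by positivity
    let X : lp E 2 := ∑ n ∈ s, lp.single 2 n (‖ψn n‖ • x n)
    have h1 : ‖X‖ ≤ Real.sqrt S := by
      apply Real.le_sqrt_of_sq_le
      rw [lp2_norm_sum_single]
      apply Finset.sum_le_sum
      intro n _
      rw [norm_smul, norm_norm]
      have := hx1 n
      have h3 : ‖ψn n‖ * ‖x n‖ ≤ ‖ψn n‖ := by
        nlinarith [norm_nonneg (ψn n)]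
      exact pow_le_pow_left₀ (by positivity) h3 2
    have h2 : S ≤ 2 * ψ X := by
      simp only [X, map_sum, hS, Finset.mul_sum]
      apply Finset.sum_le_sum
      intro n _
      have h4 : ψ (lp.single 2 n (‖ψn n‖ • x n)) = ‖ψn n‖ * ψn n (x n) := by
        have : ψ (lp.single 2 n (‖ψn n‖ • x n)) = ψn n (‖ψn n‖ • x n) := rfl
        rw [this, map_smul, smul_eq_mul]
      rw [h4]
      nlinarith [hx2 n, norm_nonneg (ψn n)]
    have h3 : S ≤ 2 * (‖ψ‖ * Real.sqrt S) := by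
      refine h2.trans ?_
      have := (le_abs_self (ψ X)).trans (ψ.le_opNorm X)
      have h5 := mul_le_mul_of_nonneg_left h1 (norm_nonneg ψ)
      linarith
    have h4 : Real.sqrt S ≤ 2 * ‖ψ‖ := by
      rcases eq_or_lt_of_le (Real.sqrt_nonneg S) with h0 | h0
      · rw [← h0]; positivity
      · have h5 : Real.sqrt S * Real.sqrt S ≤ 2 * ‖ψ‖ * Real.sqrt S := by
          rw [Real.mul_self_sqrt hS0]; linarith
        exact le_of_mul_le_mul_right h5 h0
    calc S = Real.sqrt S ^ 2 := (Real.sq_sqrt hS0).symm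
      _ ≤ (2 * ‖ψ‖) ^ 2 := pow_le_pow_left₀ (Real.sqrt_nonneg _) h4 2
      _ = 4 * ‖ψ‖ ^ 2 := by ring
  have hS2 : Summable fun n => (ψn n).comp (lp.evalCLM ℝ E 2 n) := by
    rw [summable_iff_vanishing_norm]
    intro ε hε
    obtain ⟨s, hs⟩ := (summable_iff_vanishing_norm.1 hsum) (ε ^ 2) (by positivity)
    refine ⟨s, fun t ht => ?_⟩
    refine (norm_sum_comp_le t ψn).trans_lt ?_
    rw [Real.sqrt_lt' hε]
    have := hs t ht
    rwa [Real.norm_of_nonneg (Finset.sum_nonneg fun _ _ => by positivity)] at this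
  have hS3 : HasSum (fun n => (ψn n).comp (lp.evalCLM ℝ E 2 n)) ψ := by
    have h1 := hS2.hasSum
    have h2 : ∑' n, (ψn n).comp (lp.evalCLM ℝ E 2 n) = ψ := by
      ext x
      have h3 := (ContinuousLinearMap.apply ℝ ℝ x).hasSum h1
      have h4 := ψ.hasSum (lp.hasSum_single (p := 2) (by norm_num) x)
      exact h3.unique h4
    rwa [h2] at h1
  have h1 := Φ.hasSum hS3
  have h2 := ψ.hasSum (lp.hasSum_single (p := 2) (by norm_num) Z)
  refine h2.unique ?_
  convert h1 using 1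
  ext n
  rw [← hz]
  rfl

end lp

end Vale.Agent.P069
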