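import Vale.Agent.Lib.P069.Reflexive

/-!
The building blocks `XN n`: the Hilbert space `ℓ²(List ℕ)` with an equivalent norm, whose dual
norm is `max (‖f‖₂) (sup_{|A| ≤ n} |path sum of f along A|)`.
-/

open scoped ENNReal NNReal Topology RealInnerProductSpace

namespace Vale.Agent.P069

/-- The Hilbert space `ℓ²` over the tree `List ℕ` (root `[]`, children of `A` are `k :: A`). -/
abbrev H : Type := lp (fun _ : List ℕ => ℝ) 2

/-- Sum of the values of `f` over the path from `A` to the root `[]`. -/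
def psum (f : List ℕ → ℝ) : List ℕ → ℝ
  | [] => f []
  | (k :: A) => f (k :: A) + psum f A

theorem psum_nil (f : List ℕ → ℝ) : psum f [] = f [] := rfl
theorem psum_cons (f : List ℕ → ℝ) (k : ℕ) (A : List ℕ) :
    psum f (k :: A) = f (k :: A) + psum f A := rfl

theorem psum_comb (f g : List ℕ → ℝ) (a b : ℝ) (A : List ℕ) :
    psum (fun v => a * f v + b * g v) A = a * psum f A + b * psum g A := by
  induction A with
  | nil => simp [psum_nil]
  | cons k A ih => rw [psum_cons, psum_cons, psum_cons, ih]; ring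

theorem psum_H_comb (f g : H) (a b : ℝ) (A : List ℕ) :
    psum (a • f + b • g : H) A = a * psum f A + b * psum g A := by
  rw [← psum_comb]; rfl

theorem abs_apply_le (f : H) (v : List ℕ) : |f v| ≤ ‖f‖ := by
  simpa using lp.norm_apply_le_norm (p := 2) (by norm_num) f v

theorem abs_psum_le (f : H) (A : List ℕ) : |psum f A| ≤ (A.length + 1) * ‖f‖ := by
  induction A with
  | nil => simpa [psum_nil] using abs_apply_le f []
  | cons k A ih =>
    rw [psum_cons]
    refine (abs_add_le _ _).trans ?_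
    have := abs_apply_le f (k :: A)
    simp only [List.length_cons]
    push_cast
    linarith

/-- The norming set. -/
def D (n : ℕ) : Set H := {f | ‖f‖ ≤ 1 ∧ ∀ A : List ℕ, A.length ≤ n → |psum f A| ≤ 1}

/-- The norm of `XN n`. -/
noncomputable def nrm (n : ℕ) (a : H) : ℝ := sSup ((fun f : H => ⟪f, a⟫) '' D n)

theorem zero_mem_D (n : ℕ) : (0 : H) ∈ D n := by
  refine ⟨by simp, fun A _ => ?_⟩
  have := abs_psum_le (0 : H) A
  simp only [norm_zero, mul_zero] at this
  linarith

theorem inner_le_of_mem {n : ℕ} {f : H} (hf : f ∈ D n) (a : H) : ⟪f, a⟫ ≤ ‖a‖ := by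
  refine (real_inner_le_norm f a).trans ?_
  nlinarith [hf.1, norm_nonneg a, norm_nonneg f]

theorem bdd (n : ℕ) (a : H) : BddAbove ((fun f : H => ⟪f, a⟫) '' D n) := by
  refine ⟨‖a‖, ?_⟩
  rintro _ ⟨f, hf, rfl⟩
  exact inner_le_of_mem hf a

theorem inner_le_nrm {n : ℕ} {f : H} (hf : f ∈ D n) (a : H) : ⟪f, a⟫ ≤ nrm n a :=
  le_csSup (bdd n a) ⟨f, hf, rfl⟩

theorem nrm_le {n : ℕ} {a : H} {c : ℝ} (h : ∀ f ∈ D n, ⟪f, a⟫ ≤ c) : nrm n a ≤ c := by
  apply csSup_le
  · exact ⟨_, 0, zero_mem_D n, rfl⟩
  · rintro _ ⟨f, hf, rfl⟩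
    exact h f hf

theorem nrm_le_norm (n : ℕ) (a : H) : nrm n a ≤ ‖a‖ := nrm_le fun _ hf => inner_le_of_mem hf a

theorem nrm_nonneg (n : ℕ) (a : H) : 0 ≤ nrm n a := by
  simpa using inner_le_nrm (zero_mem_D n) a

theorem neg_mem_D {n : ℕ} {f : H} (hf : f ∈ D n) : -f ∈ D n := by
  refine ⟨by simpa using hf.1, fun A hA => ?_⟩
  have : psum (-f : H) A = - psum f A := by
    have := psum_H_comb f f (-1) 0 A
    simpa using this
  rw [this, abs_neg]
  exact hf.2 A hA

theorem nrm_neg (n : ℕ) (a : H) : nrm n (-a) = nrm n a := by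
  have key : ∀ b : H, nrm n (-b) ≤ nrm n b := by
    intro b
    apply nrm_le
    intro f hf
    have := inner_le_nrm (neg_mem_D hf) b
    simpa using this
  apply le_antisymm (key a)
  simpa using key (-a)

theorem nrm_add_le (n : ℕ) (a b : H) : nrm n (a + b) ≤ nrm n a + nrm n b := by
  apply nrm_le
  intro f hf
  rw [inner_add_right]
  exact add_le_add (inner_le_nrm hf a) (inner_le_nrm hf b)

theorem norm_le_nrm (n : ℕ) (a : H) : ‖a‖ ≤ (n + 1) * nrm n a := by
  rcases eq_or_ne a 0 with rfl | ha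
  · simp only [norm_zero]; exact mul_nonneg (by positivity) (nrm_nonneg _ _)
  have ha' : 0 < ‖a‖ := norm_pos_iff.2 ha
  have hn : (0 : ℝ) < n + 1 := by positivity
  set c : ℝ := 1 / ((n + 1) * ‖a‖) with hc
  have hc0 : 0 < c := by positivity
  have hcn : c * ‖a‖ = 1 / (n + 1) := by rw [hc]; field_simp
  have hmem : c • a ∈ D n := by
    constructor
    · rw [norm_smul, Real.norm_of_nonneg hc0.le, hcn, div_le_one hn]
      linarith [(Nat.cast_nonneg n : (0:ℝ) ≤ n)]
    · intro A hA
      refine (abs_psum_le _ A).trans ?_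
      rw [norm_smul, Real.norm_of_nonneg hc0.le, hcn, mul_one_div, div_le_one hn]
      have : (A.length : ℝ) ≤ n := by exact_mod_cast hA
      linarith
  have h := inner_le_nrm hmem a
  rw [real_inner_smul_left, real_inner_self_eq_norm_sq] at h
  have h2 : c * ‖a‖ ^ 2 = ‖a‖ / (n + 1) := by
    rw [sq, ← mul_assoc, hcn]; ring
  rw [h2, div_le_iff₀ hn] at h
  linarith

theorem nrm_smul_le (n : ℕ) (c : ℝ) (a : H) : nrm n (c • a) ≤ |c| * nrm n a := by
  apply nrm_le
  intro f hf
  rw [real_inner_smul_right]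
  rcases le_total 0 c with hc | hc
  · rw [abs_of_nonneg hc]
    exact mul_le_mul_of_nonneg_left (inner_le_nrm hf a) hc
  · rw [abs_of_nonpos hc]
    have := inner_le_nrm (neg_mem_D hf) a
    rw [inner_neg_left] at this
    nlinarith

/-- The space `XN n`: same vectors as `H`, new norm `nrm n`. -/
def XN (_n : ℕ) : Type := H

noncomputable instance (n : ℕ) : AddCommGroup (XN n) := inferInstanceAs (AddCommGroup H)

noncomputable instance (n : ℕ) : Module ℝ (XN n) := inferInstanceAs (Module ℝ H)

noncomputable instance (n : ℕ) : NormedAddCommGroup (XN n) :=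
  AddGroupNorm.toNormedAddCommGroup
    { toFun := nrm n
      map_zero' := by
        apply le_antisymm _ (nrm_nonneg _ _)
        exact (nrm_le_norm n 0).trans (by simp)
      add_le' := fun a b => nrm_add_le n a b
      neg' := fun a => nrm_neg n a
      eq_zero_of_map_eq_zero' := fun a ha => by
        have h := norm_le_nrm n a
        have h2 : nrm n a = 0 := ha
        rw [h2, mul_zero] at h
        exact norm_le_zero_iff.1 h }

theorem XN_norm_def {n : ℕ} (a : XN n) : ‖a‖ = nrm n (a : H) := rfl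

noncomputable instance (n : ℕ) : NormedSpace ℝ (XN n) where
  norm_smul_le c a := by
    rw [XN_norm_def, XN_norm_def, Real.norm_eq_abs]
    exact nrm_smul_le n c a

/-- The identity `H → XN n` as a linear equivalence. -/
noncomputable def eqvL (n : ℕ) : H ≃ₗ[ℝ] XN n where
  toFun a := a
  invFun a := a
  map_add' _ _ := rfl
  map_smul' _ _ := rfl
  left_inv _ := rfl
  right_inv _ := rfl

/-- The identity `H → XN n` as a continuous linear equivalence. -/
noncomputable def eqv (n : ℕ) : H ≃L[ℝ] XN n :=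
  (eqvL n).toContinuousLinearEquivOfBounds 1 (n + 1)
    (fun a => by
      rw [one_mul]
      exact nrm_le_norm n a)
    (fun a => norm_le_nrm n a)

theorem eqv_norm {n : ℕ} (a : H) : ‖eqv n a‖ = nrm n a := rfl

theorem reflexive_XN (n : ℕ) : ReflexiveSpace (XN n) :=
  ReflexiveSpace.of_equiv (eqv n) reflexive_of_hilbert

instance (n : ℕ) : CompleteSpace (XN n) :=
  (completeSpace_congr (e := (eqv n).toEquiv) (eqv n).isUniformEmbedding).1 inferInstance

/-- The counterexample space: the `ℓ²`-sum of the spaces `XN n`. -/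
abbrev X : Type := lp (fun n : ℕ => XN n) 2

theorem reflexive_X : ReflexiveSpace X := reflexive_lp reflexive_XN

end Vale.Agent.P069
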